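import Vale.Agent.P170.IID

open MeasureTheory ProbabilityTheory Filter Topology

namespace Vale.Agent.Results.P170.IndependentClauses

open Vale.Agent.P170

theorem result : ∀ k : ℕ, 3 ≤ k → ∃ α : ℝ, 0 < α ∧
    ∀ (Ω : ℕ → Type) [∀ n, MeasurableSpace (Ω n)] (P : ∀ n, Measure (Ω n))
      [∀ n, IsProbabilityMeasure (P n)] (C : ∀ n, ℕ → Ω n → Finset (Fin n × Bool)),
      (∀ n i D, MeasurableSet {ω | C n i ω = D}) →
      (∀ n, iIndepFun (m := fun _ => ⊤) (C n) (P n)) →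
      (∀ n i, k ≤ n → ∀ D : Finset (Fin n × Bool), D.card = k → (D.image Prod.fst).card = k →
        P n {ω | C n i ω = D} = 1 / ((2 ^ k * n.choose k : ℕ) : ENNReal)) →
      (∀ c : ℝ, 0 ≤ c → c < α → Tendsto (fun n : ℕ =>
        P n {ω | ∃ x : Fin n → Bool, ∀ i < ⌊c * n⌋₊, ∃ l ∈ C n i ω, x l.1 = l.2}) atTop (𝓝 1)) ∧
      (∀ c : ℝ, α < c → Tendsto (fun n : ℕ =>
        P n {ω | ∃ x : Fin n → Bool, ∀ i < ⌊c * n⌋₊, ∃ l ∈ C n i ω, x l.1 = l.2}) atTop (𝓝 0)) := by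
  intro k hk
  obtain ⟨α, hα, h1, h2⟩ := main k hk
  refine ⟨α, hα, ?_⟩
  intro Ω _ P _ C hmeas hind hunif
  have key : ∀ c : ℝ, (fun n : ℕ => ENNReal.ofReal (probSat k n ⌊c * n⌋₊)) =ᶠ[atTop]
      (fun n : ℕ =>
        P n {ω | ∃ x : Fin n → Bool, ∀ i < ⌊c * n⌋₊, ∃ l ∈ C n i ω, x l.1 = l.2}) := by
    intro c
    filter_upwards [eventually_ge_atTop k] with n hn
    exact (prob_eq hn (P n) (C n) (hmeas n) (hind n) (fun i D => hunif n i hn D) _).symm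
  refine ⟨fun c hc hcα => ?_, fun c hc => ?_⟩
  · have h3 := (ENNReal.continuous_ofReal.tendsto 1).comp (h1 c hc hcα)
    rw [ENNReal.ofReal_one] at h3
    exact h3.congr' (key c)
  · have h3 := (ENNReal.continuous_ofReal.tendsto 0).comp (h2 c hc)
    rw [ENNReal.ofReal_zero] at h3
    exact h3.congr' (key c)

end Vale.Agent.Results.P170.IndependentClauses
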