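import Vale.Agent.P170.Final

namespace Vale.Agent.Results.P170.Threshold

open Vale.Agent.P170

theorem result : ∀ k : ℕ, 3 ≤ k → ∃ α : ℝ, IsLimitingThreshold k α :=
  fun k hk => main k hk

end Vale.Agent.Results.P170.Threshold
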